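import Mathlib.NumberTheory.LSeries.AbstractFuncEq
import Mathlib.NumberTheory.LSeries.Basic
import Mathlib.Analysis.Complex.PhragmenLindelof
import Mathlib.Analysis.SpecialFunctions.Gamma.Beta
import Mathlib.Analysis.MellinTransform
import Mathlib.Analysis.Real.Pi.Bounds
import Mathlib.MeasureTheory.Integral.Prod

/-!
# P004H: the kernel `W` of the Rankin-Selberg identity and its Mellin transform
-/

open Real MeasureTheory Set Filter Topology

namespace Vale.Agent.P004H.H392

/-- the kernel -/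
noncomputable def W (u : ℝ) : ℝ := 2 * ∫ s in Ioi (0 : ℝ), Real.exp (-(4 * π * s) - π * u / s)

/-- the integrand -/
noncomputable def wi (u s : ℝ) : ℝ := Real.exp (-(4 * π * s) - π * u / s)

theorem wi_pos (u s : ℝ) : 0 < wi u s := Real.exp_pos _

theorem wi_eq (u s : ℝ) : wi u s = Real.exp (-(4 * π * s)) * Real.exp (-(π * u / s)) := by
  unfold wi
  rw [← Real.exp_add]
  ring_nf

theorem measurable_wi : Measurable (Function.uncurry wi) := by
  unfold wi
  fun_prop

theorem wi_le {u s : ℝ} (hu : 0 ≤ u) (hs : 0 < s) : wi u s ≤ Real.exp (-(4 * π * s)) := by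
  unfold wi
  apply Real.exp_le_exp.2
  have : 0 ≤ π * u / s := by positivity
  linarith

theorem integrableOn_exp : IntegrableOn (fun s : ℝ => Real.exp (-(4 * π * s))) (Ioi 0) := by
  have h := exp_neg_integrableOn_Ioi 0 (by positivity : (0 : ℝ) < 4 * π)
  refine h.congr_fun (fun s _ => ?_) measurableSet_Ioi
  ring_nf

theorem integrable_wi {u : ℝ} (hu : 0 ≤ u) : IntegrableOn (wi u) (Ioi 0) := by
  refine Integrable.mono' integrableOn_exp ?_ ?_
  · have : Measurable (wi u) := by unfold wi; fun_prop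
    exact this.aestronglyMeasurable
  · filter_upwards [ae_restrict_mem measurableSet_Ioi] with s hs
    rw [Real.norm_of_nonneg (wi_pos _ _).le]
    exact wi_le hu hs

theorem W_eq (u : ℝ) : W u = 2 * ∫ s in Ioi (0 : ℝ), wi u s := rfl

theorem W_nonneg (u : ℝ) : 0 ≤ W u := by
  unfold W
  have : 0 ≤ ∫ s in Ioi (0 : ℝ), Real.exp (-(4 * π * s) - π * u / s) :=
    integral_nonneg fun s => (Real.exp_pos _).le
  linarith

theorem W_anti {u v : ℝ} (hu : 0 ≤ u) (huv : u ≤ v) : W v ≤ W u := by
  rw [W_eq, W_eq]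
  have : ∫ s in Ioi (0 : ℝ), wi v s ≤ ∫ s in Ioi (0 : ℝ), wi u s := by
    refine setIntegral_mono_on (integrable_wi (hu.trans huv)) (integrable_wi hu)
      measurableSet_Ioi fun s hs => ?_
    have hs' : (0 : ℝ) < s := hs
    unfold wi
    apply Real.exp_le_exp.2
    have : π * u / s ≤ π * v / s := by gcongr
    linarith
  linarith

theorem pow_exp_le (r : ℕ) {x : ℝ} (hx : 0 ≤ x) : x ^ r * Real.exp (-(π * x)) ≤ (r.factorial : ℝ) := by
  have h1 := Real.pow_div_factorial_le_exp x hx r
  have h2 : (0 : ℝ) < r.factorial := by exact_mod_cast Nat.factorial_pos r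
  have h3 : x ^ r ≤ r.factorial * Real.exp x := by
    rw [div_le_iff₀ h2] at h1
    linarith
  have h4 : Real.exp x * Real.exp (-(π * x)) ≤ 1 := by
    rw [← Real.exp_add]
    apply Real.exp_le_one_iff.2
    have : 1 ≤ π := by linarith [Real.pi_gt_three]
    nlinarith
  calc x ^ r * Real.exp (-(π * x)) ≤ (r.factorial * Real.exp x) * Real.exp (-(π * x)) := by gcongr
    _ = r.factorial * (Real.exp x * Real.exp (-(π * x))) := by ring
    _ ≤ r.factorial * 1 := by gcongr
    _ = _ := mul_one _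

/-- decay of `W` -/
theorem W_le (r : ℕ) : ∃ C : ℝ, 0 < C ∧ ∀ u : ℝ, 0 < u → W u ≤ C * (u ^ r)⁻¹ := by
  have hint : IntegrableOn (fun s : ℝ => s ^ r * Real.exp (-(4 * π * s))) (Ioi 0) := by
    have h := Real.GammaIntegral_convergent (s := (r : ℝ) + 1) (by positivity)
    have h2 := (integrableOn_Ioi_comp_mul_left_iff
      (fun x : ℝ => Real.exp (-x) * x ^ ((r : ℝ) + 1 - 1)) 0 (by positivity : (0 : ℝ) < 4 * π)).2
      (by simpa using h)
    have h3 := h2.const_mul ((4 * π) ^ r)⁻¹
    refine IntegrableOn.congr_fun h3 (fun s hs => ?_) measurableSet_Ioi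
    have hs' : (0 : ℝ) < s := hs
    simp only [add_sub_cancel_right, Real.rpow_natCast]
    rw [mul_pow (4 * π) s r]
    have : ((4 * π) ^ r : ℝ) ≠ 0 := by positivity
    field_simp
  set I := ∫ s in Ioi (0 : ℝ), s ^ r * Real.exp (-(4 * π * s)) with hI
  have hI0 : 0 ≤ I := setIntegral_nonneg measurableSet_Ioi fun s hs => by
    have hs' : (0 : ℝ) < s := hs
    positivity
  refine ⟨2 * r.factorial * I + 1, by positivity, fun u hu => ?_⟩
  rw [W_eq]
  have h1 : ∫ s in Ioi (0 : ℝ), wi u s ≤ ∫ s in Ioi (0 : ℝ),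
      (r.factorial * (u ^ r)⁻¹) * (s ^ r * Real.exp (-(4 * π * s))) := by
    refine setIntegral_mono_on (integrable_wi hu.le) (hint.const_mul _) measurableSet_Ioi
      fun s hs => ?_
    have hs' : (0 : ℝ) < s := hs
    have h2 := pow_exp_le r (x := u / s) (by positivity)
    have h3 : Real.exp (-(π * (u / s))) ≤ r.factorial * (s / u) ^ r := by
      rw [div_pow] at h2 ⊢
      rw [← mul_div_assoc (r.factorial : ℝ), le_div_iff₀ (pow_pos hu r)]
      calc Real.exp (-(π * (u / s))) * u ^ r
          = (u ^ r / s ^ r * Real.exp (-(π * (u / s)))) * s ^ r := by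
            field_simp
        _ ≤ r.factorial * s ^ r := by gcongr
    rw [wi_eq, mul_div_assoc π u s]
    calc Real.exp (-(4 * π * s)) * Real.exp (-(π * (u / s)))
        ≤ Real.exp (-(4 * π * s)) * (r.factorial * (s / u) ^ r) := by gcongr
      _ = _ := by rw [div_pow]; ring
  rw [integral_const_mul] at h1
  have h5 : (0 : ℝ) ≤ (u ^ r)⁻¹ := by positivity
  nlinarith [h1]

/-! ### the Mellin transform of `W` -/

/-- the Mellin transform of `W` -/
noncomputable def Wt (s : ℂ) : ℂ :=
  2 * (Complex.Gamma s * Complex.Gamma (s + 1)) * ((π : ℂ) ^ (-s) * ((4 * π : ℝ) : ℂ) ^ (-(s + 1)))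

theorem inner_int {s : ℂ} (hs : 0 < s.re) {x : ℝ} (hx : 0 < x) :
    ∫ t in Ioi (0 : ℝ), (t : ℂ) ^ (s - 1) * (Real.exp (-(π * t / x)) : ℂ) =
      ((x / π : ℝ) : ℂ) ^ s * Complex.Gamma s := by
  have h := Complex.integral_cpow_mul_exp_neg_mul_Ioi (a := s) (r := π / x) hs (by positivity)
  rw [show ((x / π : ℝ) : ℂ) = 1 / ((π / x : ℝ) : ℂ) by push_cast; rw [one_div_div], ← h]
  refine setIntegral_congr_fun measurableSet_Ioi fun t _ => ?_
  congr 1
  push_cast
  congr 1
  ring

theorem inner_int_real {σ : ℝ} (hs : 0 < σ) {x : ℝ} (hx : 0 < x) :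
    ∫ t in Ioi (0 : ℝ), t ^ (σ - 1) * Real.exp (-(π * t / x)) =
      (x / π) ^ σ * Real.Gamma σ := by
  have h := Real.integral_rpow_mul_exp_neg_mul_Ioi (a := σ) (r := π / x) hs (by positivity)
  rw [show x / π = 1 / (π / x) by rw [one_div_div], ← h]
  refine setIntegral_congr_fun measurableSet_Ioi fun t _ => ?_
  congr 2
  ring

theorem integrable_inner {σ : ℝ} (hs : 0 < σ) {x : ℝ} (hx : 0 < x) :
    IntegrableOn (fun t : ℝ => t ^ (σ - 1) * Real.exp (-(π * t / x))) (Ioi 0) := by
  have h := Real.GammaIntegral_convergent (s := σ) hs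
  have h2 := (integrableOn_Ioi_comp_mul_left_iff
      (fun x : ℝ => Real.exp (-x) * x ^ (σ - 1)) 0 (by positivity : (0 : ℝ) < π / x)).2
      (by simpa using h)
  have h3 := h2.const_mul ((π / x) ^ (σ - 1))⁻¹
  refine IntegrableOn.congr_fun h3 (fun t ht => ?_) measurableSet_Ioi
  have ht' : (0 : ℝ) < t := ht
  have h4 : (0 : ℝ) < π / x := by positivity
  rw [Real.mul_rpow h4.le ht'.le]
  have : ((π / x) ^ (σ - 1) : ℝ) ≠ 0 := by positivity
  field_simp

theorem integrable_outer {σ : ℝ} (hs : 0 < σ) :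
    IntegrableOn (fun x : ℝ => Real.exp (-(4 * π * x)) * ((x / π) ^ σ * Real.Gamma σ)) (Ioi 0) := by
  have h := Real.GammaIntegral_convergent (s := σ + 1) (by positivity)
  have h2 := (integrableOn_Ioi_comp_mul_left_iff
      (fun x : ℝ => Real.exp (-x) * x ^ (σ + 1 - 1)) 0 (by positivity : (0 : ℝ) < 4 * π)).2
      (by simpa using h)
  have h3 := h2.const_mul (((4 * π) ^ σ)⁻¹ * (π ^ σ)⁻¹ * Real.Gamma σ)
  refine IntegrableOn.congr_fun h3 (fun t ht => ?_) measurableSet_Ioi
  have ht' : (0 : ℝ) < t := ht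
  simp only [add_sub_cancel_right]
  rw [Real.mul_rpow (by positivity) ht'.le, Real.div_rpow ht'.le Real.pi_pos.le]
  have h5 : ((4 * π) ^ σ : ℝ) ≠ 0 := by positivity
  have h6 : (π ^ σ : ℝ) ≠ 0 := by positivity
  field_simp

theorem integrable_prod {s : ℂ} (hs : 0 < s.re) :
    Integrable (Function.uncurry fun t x : ℝ => (t : ℂ) ^ (s - 1) * (wi t x : ℂ))
      ((volume.restrict (Ioi 0)).prod (volume.restrict (Ioi 0))) := by
  rw [integrable_prod_iff']
  · refine ⟨?_, ?_⟩
    · filter_upwards [ae_restrict_mem measurableSet_Ioi] with x hx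
      have hx' : (0 : ℝ) < x := hx
      have h1 := (integrable_inner hs hx').const_mul (Real.exp (-(4 * π * x)))
      refine Integrable.mono' h1 ?_ ?_
      · refine Measurable.aestronglyMeasurable ?_
        unfold wi
        fun_prop
      · filter_upwards [ae_restrict_mem measurableSet_Ioi] with t ht
        have ht' : (0 : ℝ) < t := ht
        simp only [Function.uncurry_apply_pair]
        rw [norm_mul, Complex.norm_cpow_eq_rpow_re_of_pos ht', Complex.norm_real,
          Real.norm_of_nonneg (wi_pos _ _).le, Complex.sub_re, Complex.one_re, wi_eq]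
        apply le_of_eq
        ring
    · refine (integrable_outer hs).congr ?_
      filter_upwards [ae_restrict_mem measurableSet_Ioi] with x hx
      have hx' : (0 : ℝ) < x := hx
      rw [← inner_int_real hs hx', ← integral_const_mul]
      refine setIntegral_congr_fun measurableSet_Ioi fun t ht => ?_
      have ht' : (0 : ℝ) < t := ht
      simp only [Function.uncurry_apply_pair]
      rw [norm_mul, Complex.norm_cpow_eq_rpow_re_of_pos ht', Complex.norm_real,
          Real.norm_of_nonneg (wi_pos _ _).le, Complex.sub_re, Complex.one_re, wi_eq]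
      ring
  · refine Measurable.aestronglyMeasurable ?_
    unfold wi
    fun_prop

theorem mellinConvergent_W {s : ℂ} (hs : 0 < s.re) :
    MellinConvergent (fun u => (W u : ℂ)) s := by
  have h := (integrable_prod hs).integral_prod_left
  unfold MellinConvergent
  refine (h.const_mul 2).congr ?_
  filter_upwards with t
  simp only [Function.uncurry_apply_pair, smul_eq_mul]
  rw [integral_const_mul, W_eq]
  push_cast
  rw [← integral_complex_ofReal]
  ring

theorem mellin_W {s : ℂ} (hs : 0 < s.re) : mellin (fun u => (W u : ℂ)) s = Wt s := by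
  have hswap := integral_integral_swap (integrable_prod hs)
  have h1 : mellin (fun u => (W u : ℂ)) s = 2 * ∫ t in Ioi (0 : ℝ), ∫ x in Ioi (0 : ℝ),
      (t : ℂ) ^ (s - 1) * (wi t x : ℂ) := by
    unfold mellin
    rw [← integral_const_mul]
    congr 1
    ext t
    simp only [smul_eq_mul]
    rw [integral_const_mul, W_eq]
    push_cast
    rw [← integral_complex_ofReal]
    ring
  have h2 : ∫ x in Ioi (0 : ℝ), ∫ t in Ioi (0 : ℝ), (t : ℂ) ^ (s - 1) * (wi t x : ℂ) =
      ∫ x in Ioi (0 : ℝ), ((π : ℂ) ^ (-s) * Complex.Gamma s) *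
        ((x : ℂ) ^ ((s + 1) - 1) * Complex.exp (-(((4 * π : ℝ) : ℂ) * x))) := by
    refine setIntegral_congr_fun measurableSet_Ioi fun x hx => ?_
    have hx' : (0 : ℝ) < x := hx
    have h3 : ∫ t in Ioi (0 : ℝ), (t : ℂ) ^ (s - 1) * (wi t x : ℂ) =
        ∫ t in Ioi (0 : ℝ), (Real.exp (-(4 * π * x)) : ℂ) *
          ((t : ℂ) ^ (s - 1) * (Real.exp (-(π * t / x)) : ℂ)) := by
      refine setIntegral_congr_fun measurableSet_Ioi fun t _ => ?_
      rw [wi_eq]
      push_cast
      ring
    rw [h3, integral_const_mul, inner_int hs hx', div_eq_mul_inv, Complex.ofReal_mul,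
      Complex.mul_cpow_ofReal_nonneg hx'.le (by positivity), add_sub_cancel_right]
    have h4 : ((π⁻¹ : ℝ) : ℂ) ^ s = (π : ℂ) ^ (-s) := by
      rw [Complex.cpow_neg, ← Complex.inv_cpow]
      · push_cast; rfl
      · rw [Complex.arg_ofReal_of_nonneg Real.pi_pos.le]
        exact Real.pi_pos.ne
    rw [h4]
    push_cast
    ring
  rw [h1, hswap, h2, integral_const_mul, Complex.integral_cpow_mul_exp_neg_mul_Ioi
    (by rw [Complex.add_re, Complex.one_re]; linarith) (by positivity)]
  unfold Wt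
  have h5 : (1 / ((4 * π : ℝ) : ℂ)) ^ (s + 1) = ((4 * π : ℝ) : ℂ) ^ (-(s + 1)) := by
    rw [Complex.cpow_neg, one_div, Complex.inv_cpow]
    rw [Complex.arg_ofReal_of_nonneg (by positivity)]
    exact Real.pi_pos.ne
  rw [h5]
  ring

end Vale.Agent.P004H.H392
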