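import Vale.Agent.P004H.H392.RS1

/-!
# P004H: the Rankin-Selberg theta function `Lam`, its Mellin transform
-/

open Real MeasureTheory Set Filter Topology Asymptotics

namespace Vale.Agent.P004H.H392

/-- the coefficients -/
structure Dat (b : ℕ → ℝ) : Prop where
  nonneg : ∀ k, 0 ≤ b k
  zero : b 0 = 0
  summ : ∀ σ : ℝ, 1 < σ → Summable fun k : ℕ => b k * (k : ℝ) ^ (-σ)

/-- the Rankin-Selberg theta function -/
noncomputable def Lam (b : ℕ → ℝ) (t : ℝ) : ℝ :=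
  ∑' k : ℕ, b k * (W (k * t) + W (k * t / 11))

variable {b : ℕ → ℝ}

theorem term_le (hb : Dat b) (r : ℕ) : ∃ C : ℝ, 0 < C ∧ ∀ (k : ℕ) (t : ℝ), 0 < t →
    b k * (W (k * t) + W (k * t / 11)) ≤ C * (t ^ r)⁻¹ * (b k * (k : ℝ) ^ (-(r : ℝ))) := by
  obtain ⟨C, hC, h⟩ := W_le r
  refine ⟨C * (1 + 11 ^ r), by positivity, fun k t ht => ?_⟩
  rcases Nat.eq_zero_or_pos k with rfl | hk
  · rw [hb.zero]; simp
  have hk' : (0 : ℝ) < k := by exact_mod_cast hk
  have h1 := h (k * t) (by positivity)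
  have h2 := h (k * t / 11) (by positivity)
  have h3 : W (k * t) + W (k * t / 11) ≤ C * (1 + 11 ^ r) * ((k * t) ^ r)⁻¹ := by
    have e : C * ((k * t / 11) ^ r)⁻¹ = C * 11 ^ r * ((k * t) ^ r)⁻¹ := by
      rw [div_pow, inv_div]
      ring
    rw [e] at h2
    calc W (k * t) + W (k * t / 11) ≤ C * ((k * t) ^ r)⁻¹ + C * 11 ^ r * ((k * t) ^ r)⁻¹ :=
          add_le_add h1 h2
      _ = _ := by ring
  calc b k * (W (k * t) + W (k * t / 11)) ≤ b k * (C * (1 + 11 ^ r) * ((k * t) ^ r)⁻¹) := by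
        gcongr
        exact hb.nonneg k
    _ = _ := by
        rw [Real.rpow_neg hk'.le, Real.rpow_natCast, mul_pow, mul_inv]
        ring

theorem term_nonneg (hb : Dat b) (k : ℕ) (t : ℝ) : 0 ≤ b k * (W (k * t) + W (k * t / 11)) :=
  mul_nonneg (hb.nonneg k) (add_nonneg (W_nonneg _) (W_nonneg _))

theorem summable_Lam (hb : Dat b) {t : ℝ} (ht : 0 < t) :
    Summable fun k : ℕ => b k * (W (k * t) + W (k * t / 11)) := by
  obtain ⟨C, hC, h⟩ := term_le hb 2
  refine Summable.of_nonneg_of_le (fun k => term_nonneg hb k t) (fun k => h k t ht) ?_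
  exact (hb.summ ((2 : ℕ) : ℝ) (by norm_num)).mul_left _

theorem Lam_nonneg (hb : Dat b) (t : ℝ) : 0 ≤ Lam b t := tsum_nonneg fun k => term_nonneg hb k t

theorem Lam_anti (hb : Dat b) : AntitoneOn (Lam b) (Ioi 0) := by
  intro t ht u hu htu
  have ht' : (0 : ℝ) < t := ht
  unfold Lam
  refine (summable_Lam hb hu).tsum_le_tsum (fun k => ?_) (summable_Lam hb ht)
  have hk : (0 : ℝ) ≤ k := Nat.cast_nonneg k
  have h1 : W (k * u) ≤ W (k * t) := W_anti (by positivity) (by gcongr)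
  have h2 : W (k * u / 11) ≤ W (k * t / 11) := W_anti (by positivity) (by gcongr)
  have := hb.nonneg k
  gcongr

theorem Lam_le (hb : Dat b) {r : ℕ} (hr : 2 ≤ r) : ∃ C : ℝ, 0 < C ∧ ∀ t : ℝ, 0 < t →
    Lam b t ≤ C * (t ^ r)⁻¹ := by
  obtain ⟨C, hC, h⟩ := term_le hb r
  have hs := hb.summ (r : ℝ) (by exact_mod_cast hr)
  have h0 : 0 ≤ ∑' k : ℕ, b k * (k : ℝ) ^ (-(r : ℝ)) :=
    tsum_nonneg fun k => mul_nonneg (hb.nonneg k) (by positivity)
  refine ⟨C * (∑' k : ℕ, b k * (k : ℝ) ^ (-(r : ℝ)) + 1), by positivity, fun t ht => ?_⟩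
  unfold Lam
  have h1 := (summable_Lam hb ht).tsum_le_tsum (fun k => h k t ht) (hs.mul_left _)
  rw [tsum_mul_left] at h1
  have h2 : 0 ≤ C * (t ^ r)⁻¹ := by positivity
  nlinarith

theorem locInt (hb : Dat b) (c : ℝ) :
    LocallyIntegrableOn (fun t => ((Lam b t + c : ℝ) : ℂ)) (Ioi 0) := by
  rw [locallyIntegrableOn_iff isOpen_Ioi.isLocallyClosed]
  intro K hK hKc
  have h1 : IntegrableOn (Lam b) K := (Lam_anti hb |>.mono hK).integrableOn_isCompact hKc
  have h2 : IntegrableOn (fun t => Lam b t + c) K := h1.add (integrableOn_const hKc.measure_lt_top.ne)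
  exact h2.ofReal

theorem top (hb : Dat b) (c r : ℝ) :
    (fun t => ((Lam b t + c : ℝ) : ℂ) - (c : ℂ)) =O[atTop] (fun t : ℝ => t ^ r) := by
  obtain ⟨n, hn⟩ := exists_nat_ge (max 2 (-r))
  have hn2 : 2 ≤ n := by exact_mod_cast (le_max_left _ _).trans hn
  have hnr : -r ≤ n := (le_max_right _ _).trans hn
  obtain ⟨C, hC, h⟩ := Lam_le hb hn2
  refine IsBigO.of_bound C ?_
  filter_upwards [eventually_ge_atTop (1 : ℝ)] with t ht
  have ht0 : 0 < t := by linarith
  rw [Complex.ofReal_add, add_sub_cancel_right, Complex.norm_real,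
    Real.norm_of_nonneg (Lam_nonneg hb t), Real.norm_of_nonneg (by positivity)]
  refine (h t ht0).trans ?_
  have h3 : (t ^ n)⁻¹ ≤ t ^ r := by
    rw [← Real.rpow_natCast, ← Real.rpow_neg ht0.le]
    exact Real.rpow_le_rpow_of_exponent_le ht (by linarith)
  gcongr

/-! ### the Mellin transform of `Lam` -/

theorem norm_int {s : ℂ} {a : ℝ} (ha : 0 < a) :
    ∫ t in Ioi (0 : ℝ), ‖(t : ℂ) ^ (s - 1) * (W (a * t) : ℂ)‖ =
      a ^ (-s.re) * ∫ t in Ioi (0 : ℝ), ‖(t : ℂ) ^ (s - 1) * (W t : ℂ)‖ := by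
  have h := integral_comp_mul_left_Ioi (fun t : ℝ => ‖(t : ℂ) ^ (s - 1) * (W t : ℂ)‖) 0 ha
  rw [mul_zero] at h
  have h2 : ∫ t in Ioi (0 : ℝ), ‖(t : ℂ) ^ (s - 1) * (W (a * t) : ℂ)‖ =
      ∫ t in Ioi (0 : ℝ), a ^ (1 - s.re) * ‖((a * t : ℝ) : ℂ) ^ (s - 1) * (W (a * t) : ℂ)‖ := by
    refine setIntegral_congr_fun measurableSet_Ioi fun t ht => ?_
    have ht' : (0 : ℝ) < t := ht
    simp only [norm_mul]
    rw [Complex.norm_cpow_eq_rpow_re_of_pos ht', Complex.norm_cpow_eq_rpow_re_of_pos (by positivity),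
      Complex.sub_re, Complex.one_re, Real.mul_rpow ha.le ht'.le]
    have : a ^ (1 - s.re) * a ^ (s.re - 1) = 1 := by
      rw [← Real.rpow_add ha]
      simp
    calc t ^ (s.re - 1) * ‖(W (a * t) : ℂ)‖ = (a ^ (1 - s.re) * a ^ (s.re - 1)) *
          (t ^ (s.re - 1) * ‖(W (a * t) : ℂ)‖) := by rw [this, one_mul]
      _ = _ := by ring
  rw [h2, integral_const_mul, h, smul_eq_mul, ← mul_assoc]
  congr 1
  rw [← Real.rpow_neg_one a, ← Real.rpow_add ha]
  congr 1
  ring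

theorem integrable_term {s : ℂ} (hs : 0 < s.re) {a : ℝ} (ha : 0 < a) :
    IntegrableOn (fun t : ℝ => (t : ℂ) ^ (s - 1) * (W (a * t) : ℂ)) (Ioi 0) :=
  (MellinConvergent.comp_mul_left (f := fun u => (W u : ℂ)) ha).2 (mellinConvergent_W hs)

theorem integral_term {s : ℂ} (hs : 0 < s.re) {a : ℝ} (ha : 0 < a) :
    ∫ t in Ioi (0 : ℝ), (t : ℂ) ^ (s - 1) * (W (a * t) : ℂ) = (a : ℂ) ^ (-s) * Wt s := by
  have h := mellin_comp_mul_left (fun u => (W u : ℂ)) s ha
  rw [mellin_W hs] at h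
  exact h

theorem mellin_Lam (hb : Dat b) {s : ℂ} (hs : 1 < s.re) :
    mellin (fun t => (Lam b t : ℂ)) s = LSeries (fun n => (b n : ℂ)) s * (1 + 11 ^ s) * Wt s := by
  have hs0 : 0 < s.re := by linarith
  set F : ℕ → ℝ → ℂ := fun k t =>
    (t : ℂ) ^ (s - 1) * ((b k * (W (k * t) + W (k * t / 11)) : ℝ) : ℂ) with hF
  set G := ∫ t in Ioi (0 : ℝ), ‖(t : ℂ) ^ (s - 1) * (W t : ℂ)‖ with hG
  have hG0 : 0 ≤ G := integral_nonneg fun t => norm_nonneg _
  have hFeq : ∀ k : ℕ, ∀ t : ℝ, F k t = (b k : ℂ) * ((t : ℂ) ^ (s - 1) * (W (k * t) : ℂ)) +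
      (b k : ℂ) * ((t : ℂ) ^ (s - 1) * (W (k / 11 * t) : ℂ)) := by
    intro k t
    simp only [hF]
    rw [show (k : ℝ) * t / 11 = k / 11 * t by ring]
    push_cast
    ring
  have hFint : ∀ k : ℕ, IntegrableOn (F k) (Ioi 0) := by
    intro k
    rcases Nat.eq_zero_or_pos k with rfl | hk
    · have : F 0 = fun _ => 0 := by
        ext t
        simp [hF, hb.zero]
      rw [this]
      exact integrableOn_zero
    have hk' : (0 : ℝ) < k := by exact_mod_cast hk
    have h1 := (integrable_term hs0 hk').const_mul (b k : ℂ)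
    have h2 := (integrable_term hs0 (a := (k : ℝ) / 11) (by positivity)).const_mul (b k : ℂ)
    refine (h1.add h2).congr ?_
    filter_upwards with t
    exact (hFeq k t).symm
  have hnorm : ∀ k : ℕ, ∫ t in Ioi (0 : ℝ), ‖F k t‖ ≤
      ((1 + 11 ^ s.re) * G) * (b k * (k : ℝ) ^ (-s.re)) := by
    intro k
    rcases Nat.eq_zero_or_pos k with rfl | hk
    · have : F 0 = fun _ => 0 := by
        ext t
        simp [hF, hb.zero]
      simp [this, hb.zero]
    have hk' : (0 : ℝ) < k := by exact_mod_cast hk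
    have h1 := (integrable_term hs0 hk').norm
    have h2 := (integrable_term hs0 (a := (k : ℝ) / 11) (by positivity)).norm
    have h3 : ∫ t in Ioi (0 : ℝ), ‖F k t‖ ≤ ∫ t in Ioi (0 : ℝ),
        (b k * ‖(t : ℂ) ^ (s - 1) * (W (k * t) : ℂ)‖ +
          b k * ‖(t : ℂ) ^ (s - 1) * (W (k / 11 * t) : ℂ)‖) := by
      refine setIntegral_mono_on (hFint k).norm ((h1.const_mul _).add (h2.const_mul _))
        measurableSet_Ioi fun t _ => ?_
      rw [hFeq]
      refine (norm_add_le _ _).trans (le_of_eq ?_)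
      rw [norm_mul (b k : ℂ), norm_mul (b k : ℂ), Complex.norm_real,
        Real.norm_of_nonneg (hb.nonneg k)]
    refine h3.trans (le_of_eq ?_)
    rw [integral_add (h1.const_mul _) (h2.const_mul _), integral_const_mul, integral_const_mul,
      norm_int hk', norm_int (by positivity : (0 : ℝ) < (k : ℝ) / 11),
      Real.div_rpow hk'.le (by norm_num), Real.rpow_neg (by norm_num : (0 : ℝ) ≤ 11), ← hG]
    field_simp
  have hsum : Summable fun k => ∫ t in Ioi (0 : ℝ), ‖F k t‖ :=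
    Summable.of_nonneg_of_le (fun k => integral_nonneg fun t => norm_nonneg _) hnorm
      ((hb.summ s.re hs).mul_left _)
  have hmain := hasSum_integral_of_summable_integral_norm hFint hsum
  have h4 : mellin (fun t => (Lam b t : ℂ)) s = ∫ t in Ioi (0 : ℝ), ∑' k, F k t := by
    unfold mellin
    refine setIntegral_congr_fun measurableSet_Ioi fun t _ => ?_
    simp only [hF, smul_eq_mul]
    rw [tsum_mul_left]
    unfold Lam
    rw [Complex.ofReal_tsum]
  rw [h4, ← hmain.tsum_eq]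
  unfold LSeries
  rw [← tsum_mul_right, ← tsum_mul_right]
  refine tsum_congr fun k => ?_
  rcases Nat.eq_zero_or_pos k with rfl | hk
  · have : F 0 = fun _ => 0 := by
      ext t
      simp [hF, hb.zero]
    simp [this]
  have hk' : (0 : ℝ) < k := by exact_mod_cast hk
  have h1 := (integrable_term hs0 hk').const_mul (b k : ℂ)
  have h2 := (integrable_term hs0 (a := (k : ℝ) / 11) (by positivity)).const_mul (b k : ℂ)
  have h5 : ∫ t in Ioi (0 : ℝ), F k t = ∫ t in Ioi (0 : ℝ),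
      ((b k : ℂ) * ((t : ℂ) ^ (s - 1) * (W (k * t) : ℂ)) +
      (b k : ℂ) * ((t : ℂ) ^ (s - 1) * (W (k / 11 * t) : ℂ))) :=
    setIntegral_congr_fun measurableSet_Ioi fun t _ => hFeq k t
  rw [h5, integral_add h1 h2, integral_const_mul, integral_const_mul, integral_term hs0 hk',
    integral_term hs0 (by positivity : (0 : ℝ) < (k : ℝ) / 11), LSeries.term_of_ne_zero hk.ne']
  have h6 : (((k : ℝ) / 11 : ℝ) : ℂ) ^ (-s) = (k : ℂ) ^ (-s) * 11 ^ s := by
    have e : (((k : ℝ) / 11 : ℝ) : ℂ) = ((k : ℝ) : ℂ) * (((11 : ℝ)⁻¹ : ℝ) : ℂ) := by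
      push_cast; ring
    have e2 : (((11 : ℝ)⁻¹ : ℝ) : ℂ) ^ (-s) = 11 ^ s := by
      rw [Complex.ofReal_inv, Complex.inv_cpow, Complex.cpow_neg, inv_inv]
      · push_cast; rfl
      · rw [Complex.arg_ofReal_of_nonneg (by norm_num)]
        exact Real.pi_pos.ne
    rw [e, Complex.mul_cpow_ofReal_nonneg hk'.le (by norm_num), e2]
    push_cast
    rfl
  rw [h6, Complex.ofReal_natCast, Complex.cpow_neg]
  ring

end Vale.Agent.P004H.H392
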