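import Vale.Agent.P004H.H392.RS4
import Mathlib.Analysis.Calculus.DSlope
import Mathlib.Analysis.Complex.RemovableSingularity

/-!
# P004H: the remainder `B(s) - V / (s - 1)` left of `1`
-/

open Real MeasureTheory Set Filter Topology Asymptotics

namespace Vale.Agent.P004H.H392

variable {b : ℕ → ℝ} {c : ℝ}

/-- `(s - 1) B(s)` -/
noncomputable def gg (hb : Dat b) (hc : FE b c) (s : ℂ) : ℂ := EE hb hc s / (1 + 11 ^ s)

/-- `B(s) - V / (s - 1)` -/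
noncomputable def RR (hb : Dat b) (hc : FE b c) : ℂ → ℂ := dslope (gg hb hc) 1

/-- the residue -/
noncomputable def VV (c : ℝ) : ℝ := 2 * π ^ 3 * c / 3

theorem den_ge {s : ℂ} (hs : 0 ≤ s.re) : 11 ^ s.re - 1 ≤ ‖(1 : ℂ) + 11 ^ s‖ := by
  have h := norm_sub_norm_le ((11 : ℂ) ^ s) (-1)
  rw [norm_neg, norm_one, norm_11, sub_neg_eq_add, add_comm] at h
  exact h

theorem den_ne {s : ℂ} (hs : 0 < s.re) : (1 : ℂ) + 11 ^ s ≠ 0 := by
  have h := den_ge hs.le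
  have h2 : (1 : ℝ) < 11 ^ s.re := Real.one_lt_rpow (by norm_num) hs
  intro h0
  rw [h0, norm_zero] at h
  linarith

theorem gg_diff (hb : Dat b) (hc : FE b c) {s : ℂ} (hs : 0 < s.re) :
    DifferentiableAt ℂ (gg hb hc) s := by
  unfold gg
  refine (EE_diff hb hc s).div ?_ (den_ne hs)
  exact (differentiableAt_const _).add (differentiableAt_id.const_cpow (Or.inl (by norm_num)))

theorem gg_eq (hb : Dat b) (hc : FE b c) {s : ℂ} (hs : 1 < s.re) :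
    gg hb hc s = (s - 1) * LSeries (fun n => (b n : ℂ)) s := by
  unfold gg
  rw [EE_eq hb hc hs, mul_div_assoc, div_self (den_ne (by linarith)), mul_one]

theorem gg_one (hb : Dat b) (hc : FE b c) : gg hb hc 1 = (VV c : ℂ) := by
  unfold gg EE KK UU VV
  rw [sub_self, mul_zero, zero_mul, zero_add, Complex.cpow_one, Complex.cpow_one]
  have h1 : Complex.Gamma (1 + 1) = 1 := by
    rw [Complex.Gamma_add_one 1 one_ne_zero, Complex.Gamma_one, mul_one]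
  have h2 : ((4 * π : ℝ) : ℂ) ^ ((1 : ℂ) + 1) = ((4 * π : ℝ) : ℂ) ^ 2 := by
    rw [show (1 : ℂ) + 1 = ((2 : ℕ) : ℂ) by norm_num, Complex.cpow_natCast]
  rw [h1, h2]
  push_cast
  ring

theorem RR_diff (hb : Dat b) (hc : FE b c) : DifferentiableOn ℂ (RR hb hc) {s | 0 < s.re} := by
  have hopen : IsOpen {s : ℂ | 0 < s.re} := isOpen_lt continuous_const Complex.continuous_re
  have h1 : {s : ℂ | 0 < s.re} ∈ 𝓝 (1 : ℂ) := hopen.mem_nhds (by simp)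
  unfold RR
  rw [Complex.differentiableOn_dslope h1]
  intro s hs
  exact (gg_diff hb hc hs).differentiableWithinAt

theorem RR_eq (hb : Dat b) (hc : FE b c) {s : ℂ} (hs : 1 < s.re) :
    RR hb hc s = LSeries (fun n => (b n : ℂ)) s - VV c / (s - 1) := by
  have hs1 : s ≠ 1 := by
    rintro rfl
    simp at hs
  have h2 : s - 1 ≠ 0 := sub_ne_zero.2 hs1
  unfold RR
  rw [dslope_of_ne _ hs1, slope_def_field, gg_one, gg_eq hb hc hs]
  field_simp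

theorem gg_bound (hb : Dat b) (hc : FE b c) : ∃ M : ℝ, 0 ≤ M ∧ ∀ s : ℂ, 3 / 5 ≤ s.re →
    s.re ≤ 3 / 2 → ‖gg hb hc s‖ ≤ M * (1 + ‖s‖) ^ 5 := by
  obtain ⟨M, hM, h⟩ := EE_bound hb hc
  refine ⟨32 * M, by positivity, fun s h1 h2 => ?_⟩
  have h3 := h s (by linarith) h2
  have h4 : 1 ≤ ‖(1 : ℂ) + 11 ^ s‖ := by
    refine le_trans ?_ (den_ge (by linarith))
    have h5 : (11 : ℝ) ^ (3 / 5 : ℝ) ≤ 11 ^ s.re := Real.rpow_le_rpow_of_exponent_le (by norm_num) h1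
    have h6 : (2 : ℝ) ≤ 11 ^ (3 / 5 : ℝ) := by
      have h7 : (2 : ℝ) = (2 ^ (5 / 3 : ℝ)) ^ (3 / 5 : ℝ) := by
        rw [← Real.rpow_mul (by norm_num)]
        norm_num
      rw [h7]
      apply Real.rpow_le_rpow (by positivity) _ (by norm_num)
      calc (2 : ℝ) ^ (5 / 3 : ℝ) ≤ 2 ^ (2 : ℝ) :=
            Real.rpow_le_rpow_of_exponent_le (by norm_num) (by norm_num)
        _ ≤ 11 := by norm_num
    linarith
  unfold gg
  rw [norm_div]
  have h5 : ‖EE hb hc s‖ / ‖(1 : ℂ) + 11 ^ s‖ ≤ ‖EE hb hc s‖ := div_le_self (norm_nonneg _) h4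
  have h6 : ‖s + 2‖ ≤ 2 * (1 + ‖s‖) := by
    have := norm_add_le s 2
    rw [Complex.norm_ofNat] at this
    have := norm_nonneg s
    linarith
  calc ‖EE hb hc s‖ / ‖(1 : ℂ) + 11 ^ s‖ ≤ M * ‖s + 2‖ ^ 5 := h5.trans h3
    _ ≤ M * (2 * (1 + ‖s‖)) ^ 5 := by gcongr
    _ = 32 * M * (1 + ‖s‖) ^ 5 := by ring

/-- **the polynomial bound for the remainder** -/
theorem RR_bound (hb : Dat b) (hc : FE b c) : ∃ K : ℝ, 0 ≤ K ∧ ∀ s : ℂ, 3 / 5 ≤ s.re →
    s.re ≤ 3 / 2 → ‖RR hb hc s‖ ≤ K * (1 + ‖s‖) ^ 5 := by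
  obtain ⟨M, hM, h⟩ := gg_bound hb hc
  have hcont : ContinuousOn (RR hb hc) (Metric.closedBall 1 (1 / 4)) := by
    refine (RR_diff hb hc).continuousOn.mono fun s hs => ?_
    rw [Metric.mem_closedBall, dist_eq_norm] at hs
    have := (Complex.abs_re_le_norm (s - 1)).trans hs
    rw [Complex.sub_re, Complex.one_re, abs_le] at this
    simp only [Set.mem_ofPred_eq]
    linarith [this.1]
  obtain ⟨C, hC⟩ := (isCompact_closedBall (1 : ℂ) (1 / 4)).exists_bound_of_continuousOn hcont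
  refine ⟨4 * (M + ‖gg hb hc 1‖) + |C|, by positivity, fun s h1 h2 => ?_⟩
  have hs5 : 1 ≤ (1 + ‖s‖) ^ 5 := one_le_pow₀ (by linarith [norm_nonneg s])
  have hC0 : 0 ≤ |C| := abs_nonneg C
  have hg0 : 0 ≤ ‖gg hb hc 1‖ := norm_nonneg _
  by_cases hd : ‖s - 1‖ ≤ 1 / 4
  · have := hC s (by rwa [Metric.mem_closedBall, dist_eq_norm])
    calc ‖RR hb hc s‖ ≤ |C| * 1 := by
          rw [mul_one]
          exact this.trans (le_abs_self _)
      _ ≤ (4 * (M + ‖gg hb hc 1‖) + |C|) * (1 + ‖s‖) ^ 5 := by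
          gcongr
          linarith
  · push Not at hd
    have hs1 : s ≠ 1 := by
      rintro rfl
      simp at hd
      linarith
    unfold RR
    rw [dslope_of_ne _ hs1, slope_def_field, norm_div, div_le_iff₀ (by linarith)]
    have h3 := h s h1 h2
    calc ‖gg hb hc s - gg hb hc 1‖ ≤ ‖gg hb hc s‖ + ‖gg hb hc 1‖ := norm_sub_le _ _
      _ ≤ M * (1 + ‖s‖) ^ 5 + ‖gg hb hc 1‖ * (1 + ‖s‖) ^ 5 := by
          gcongr
          exact le_mul_of_one_le_right hg0 hs5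
      _ = (M + ‖gg hb hc 1‖) * (1 + ‖s‖) ^ 5 := by ring
      _ ≤ (4 * (M + ‖gg hb hc 1‖) + |C|) * (1 + ‖s‖) ^ 5 * (1 / 4) := by
          have : 0 ≤ |C| * (1 + ‖s‖) ^ 5 := by positivity
          nlinarith
      _ ≤ (4 * (M + ‖gg hb hc 1‖) + |C|) * (1 + ‖s‖) ^ 5 * ‖s - 1‖ := by gcongr

/-- `LSeries` as a plain sum -/
theorem lseries_eq (hb : Dat b) {s : ℂ} (hs : s ≠ 0) :
    LSeries (fun n => (b n : ℂ)) s = ∑' k : ℕ, (b k : ℂ) * (k : ℂ) ^ (-s) := by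
  unfold LSeries
  refine tsum_congr fun k => ?_
  rcases Nat.eq_zero_or_pos k with rfl | hk
  · rw [LSeries.term_zero, hb.zero]; simp
  rw [LSeries.term_of_ne_zero hk.ne', Complex.cpow_neg]
  exact div_eq_mul_inv _ _

/-- **the input of the Tauberian theorem** -/
theorem input (hb : Dat b) (hc : FE b c) (hc0 : 0 < c) :
    ∃ (V K : ℝ) (Rm : ℂ → ℂ), 0 < V ∧ 0 ≤ K ∧
      DifferentiableOn ℂ Rm {s | 0 < s.re} ∧
      (∀ s : ℂ, 1 < s.re → Rm s = (∑' k : ℕ, (b k : ℂ) * (k : ℂ) ^ (-s)) - V / (s - 1)) ∧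
      (∀ s : ℂ, 3 / 5 ≤ s.re → s.re ≤ 3 / 2 → ‖Rm s‖ ≤ K * (1 + ‖s‖) ^ 5) := by
  obtain ⟨K, hK, h⟩ := RR_bound hb hc
  refine ⟨VV c, K, RR hb hc, ?_, hK, RR_diff hb hc, fun s hs => ?_, h⟩
  · unfold VV
    positivity
  · rw [RR_eq hb hc hs, lseries_eq hb]
    rintro rfl
    simp at hs
    linarith

end Vale.Agent.P004H.H392
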